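import Vale.Agent.Lib.P075.Defs
import Vale.Agent.Lib.P075.Final

open Vale.Agent.Lib.P075

/-- Uniform bound for the dyadic model of the triangular Hilbert form at the exponents `(3,3,3)`:
there is one constant `C` valid for all finite `S`, all real `|ε k| ≤ 1` and all real bounded
compactly supported measurable `F₀, F₁, F₂`. -/
theorem Vale.Agent.Results.P075.DyadicBound.result :
    ∃ C : ℝ, ∀ (S : Finset ℤ) (ε : ℤ → ℝ) (F₀ F₁ F₂ : ℝ × ℝ → ℝ),
      (∀ k, |ε k| ≤ 1) →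
      Measurable F₀ → Measurable F₁ → Measurable F₂ →
      (∃ M, ∀ p, |F₀ p| ≤ M) → (∃ M, ∀ p, |F₁ p| ≤ M) → (∃ M, ∀ p, |F₂ p| ≤ M) →
      HasCompactSupport F₀ → HasCompactSupport F₁ → HasCompactSupport F₂ →
      |dyadicForm S ε F₀ F₁ F₂| ≤ C * (l3norm F₀ * l3norm F₁ * l3norm F₂) :=
  main_theorem
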